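import Vale.Agent.P245.Bdl.B1

/-! # P245 (helper229): Gaussian integration by parts for vector fields (Skorokhod isometry)

For smooth bounded `u v` on `(ℝⁿ, gsn n)`:
`∫ (u z_f - ∂_f u)(v z_g - ∂_g v) = δ_fg ∫ u v + ∫ ∂_g u ∂_f v`. -/

open MeasureTheory Real Set Filter Topology
open scoped ENNReal ContDiff

namespace Vale.Agent.P245.H229

open LS E1

variable {n : ℕ}

/-- symmetry of second derivatives -/
theorem pd_symm {v : (Fin n → ℝ) → ℝ} (hv : SB v) (i j : Fin n) :
    pd (pd v i) j = pd (pd v j) i := by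
  funext y
  have h2 : ContDiff ℝ 2 v := hv.contDiff_nat 2
  have hs : IsSymmSndFDerivAt ℝ v y := h2.contDiffAt.isSymmSndFDerivAt (by simp)
  have hd : DifferentiableAt ℝ (fderiv ℝ v) y :=
    (h2.fderiv_right (m := 1) (by norm_num)).differentiable (by norm_num) y
  have e : ∀ a b : Fin n, pd (pd v a) b y
      = fderiv ℝ (fderiv ℝ v) y (Pi.single b 1) (Pi.single a 1) := by
    intro a b
    unfold pd
    have h3 : HasFDerivAt (fun x => fderiv ℝ v x (Pi.single a 1))
        ((fderiv ℝ (fderiv ℝ v) y).flip (Pi.single a 1)) y := by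
      have := hd.hasFDerivAt.clm_apply (hasFDerivAt_const (Pi.single a (1 : ℝ)) y)
      simpa only [ContinuousLinearMap.comp_zero, zero_add] using this
    rw [h3.fderiv]
    rfl
  rw [e i j, e j i]
  exact hs _ _

theorem eg1_sb {u : (Fin n → ℝ) → ℝ} (hu : SB u) : EG1 u := by
  obtain ⟨C, hC0, hC⟩ := hu.bdd'
  obtain ⟨D, hD0, hD⟩ := EG1.const (n := n) C
  exact ⟨D, hD0, fun z => ((hC z).trans (le_abs_self C)).trans (hD z)⟩

/-- integration by parts, bounded smooth functions -/
theorem ibp_sb {u : (Fin n → ℝ) → ℝ} (hu : SB u) (i : Fin n) :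
    ∫ z, z i * u z ∂(gsn n) = ∫ z, pd u i z ∂(gsn n) :=
  gauss_ibp hu.differentiable (eg1_sb hu) i (eg1_sb (hu.pd i))
    (hu.pd i).continuous.aestronglyMeasurable

theorem pd_coord (g f : Fin n) (y : Fin n → ℝ) :
    pd (fun z : Fin n → ℝ => z g) f y = if g = f then 1 else 0 := by
  unfold pd
  have h : HasFDerivAt (fun z : Fin n → ℝ => z g)
      (ContinuousLinearMap.proj (R := ℝ) (φ := fun _ : Fin n => ℝ) g) y :=
    (ContinuousLinearMap.proj (R := ℝ) (φ := fun _ : Fin n => ℝ) g).hasFDerivAt
  rw [h.fderiv]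
  simp [Pi.single_apply]

/-- **the isometry, one pair of components** -/
theorem skor_pair {u v : (Fin n → ℝ) → ℝ} (hu : SB u) (hv : SB v) (f g : Fin n) :
    ∫ z, (u z * z f - pd u f z) * (v z * z g - pd v g z) ∂(gsn n)
      = (if g = f then ∫ z, u z * v z ∂(gsn n) else 0)
        + ∫ z, pd u g z * pd v f z ∂(gsn n) := by
  -- the test function
  set F : (Fin n → ℝ) → ℝ := fun z => v z * z g - pd v g z with hF
  have hcoord : Differentiable ℝ fun z : Fin n → ℝ => z g := by fun_prop
  have hFd : Differentiable ℝ F :=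
    (hv.differentiable.mul hcoord).sub (hv.pd g).differentiable
  have hFc : Continuous F := hFd.continuous
  have eF : pd F f = fun z => (pd v f z * z g + v z * (if g = f then 1 else 0))
      - pd (pd v g) f z := by
    funext z
    have h1 : pd (fun z => v z * z g) f z = pd v f z * z g + v z * (if g = f then 1 else 0) := by
      have := congrFun (LS.pd_mul hv.differentiable hcoord f) z
      rw [this, pd_coord]
      ring
    have h2 : pd F f z = pd (fun z => v z * z g) f z - pd (pd v g) f z := by
      unfold pd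
      have h3 := ((hv.differentiable.mul hcoord) z).hasFDerivAt.sub
        ((hv.pd g).differentiable z).hasFDerivAt
      have h4 : HasFDerivAt F _ z := h3
      rw [h4.fderiv]
      rfl
    rw [h2, h1]
  have egF : EG1 F := by
    have h1 : EG1 fun z => v z * z g := (eg1_sb hv).mul (EG1.coord g)
    have h2 : EG1 fun z => (-1) * pd v g z := (eg1_sb (hv.pd g)).const_mul (-1)
    have := h1.add h2
    refine (by simpa only [neg_one_mul, ← sub_eq_add_neg] using this)
  have egF' : EG1 (pd F f) := by
    rw [eF]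
    have h1 : EG1 fun z => pd v f z * z g := (eg1_sb (hv.pd f)).mul (EG1.coord g)
    have h2 : EG1 fun z => v z * (if g = f then (1 : ℝ) else 0) := (eg1_sb hv).mul (EG1.const _)
    have h3 : EG1 fun z => (-1) * pd (pd v g) f z := (eg1_sb ((hv.pd g).pd f)).const_mul (-1)
    have := (h1.add h2).add h3
    refine (by simpa only [neg_one_mul, ← sub_eq_add_neg] using this)
  have hF'c : Continuous (pd F f) := by
    rw [eF]
    have h1 := (hv.pd f).continuous
    have h2 := hv.continuous
    have h3 := ((hv.pd g).pd f).continuous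
    have h4 : Continuous fun z : Fin n → ℝ => z g := by fun_prop
    exact ((h1.mul h4).add (h2.mul continuous_const)).sub h3
  -- first integration by parts
  have huF : Differentiable ℝ fun z => u z * F z := hu.differentiable.mul hFd
  have epd : (fun z => fderiv ℝ (fun z => u z * F z) z (Pi.single f 1))
      = fun z => pd u f z * F z + u z * pd F f z := by
    have := LS.pd_mul hu.differentiable hFd f
    refine Eq.trans this ?_
    funext z
    ring
  have i1 : ∫ z, z f * (u z * F z) ∂(gsn n)
      = ∫ z, (pd u f z * F z + u z * pd F f z) ∂(gsn n) := by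
    have h := gauss_ibp huF ((eg1_sb hu).mul egF) f
      (by rw [epd]; exact ((eg1_sb (hu.pd f)).mul egF).add ((eg1_sb hu).mul egF'))
      (by rw [epd]; exact (((hu.pd f).continuous.mul hFc).add
        (hu.continuous.mul hF'c)).aestronglyMeasurable)
    rw [h, epd]
  have c1 : Continuous fun z : Fin n → ℝ => z f * (u z * F z) :=
    (continuous_apply f).mul (hu.continuous.mul hFc)
  have n1 : Integrable (fun z => z f * (u z * F z)) (gsn n) :=
    (((eg1_sb hu).mul egF).mul_coord f).int c1
  have n2 : Integrable (fun z => pd u f z * F z) (gsn n) :=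
    ((eg1_sb (hu.pd f)).mul egF).int ((hu.pd f).continuous.mul hFc)
  have n3 : Integrable (fun z => u z * pd F f z) (gsn n) :=
    ((eg1_sb hu).mul egF').int (hu.continuous.mul hF'c)
  have s1 : ∫ z, (u z * z f - pd u f z) * F z ∂(gsn n) = ∫ z, u z * pd F f z ∂(gsn n) := by
    have e1 : (fun z => (u z * z f - pd u f z) * F z)
        = fun z => z f * (u z * F z) - pd u f z * F z := by
      funext z; ring
    rw [e1, integral_sub n1 n2, i1, integral_add n2 n3]
    ring
  rw [s1, eF]
  -- second integration by parts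
  have hw : SB fun z => u z * pd v f z := hu.mul (hv.pd f)
  have i2 := ibp_sb hw g
  have e2 : pd (fun z => u z * pd v f z) g
      = fun z => pd u g z * pd v f z + u z * pd (pd v f) g z := by
    refine Eq.trans (LS.pd_mul hu.differentiable (hv.pd f).differentiable g) ?_
    funext z
    ring
  have m1 : Integrable (fun z => z g * (u z * pd v f z)) (gsn n) :=
    ((eg1_sb hw).mul_coord g).int ((continuous_apply g).mul hw.continuous)
  have m2 : Integrable (fun z => u z * v z) (gsn n) := (hu.mul hv).integrable _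
  have m3 : Integrable (fun z => u z * pd (pd v g) f z) (gsn n) :=
    (hu.mul ((hv.pd g).pd f)).integrable _
  have m4 : Integrable (fun z => pd u g z * pd v f z) (gsn n) :=
    ((hu.pd g).mul (hv.pd f)).integrable _
  have m5 : Integrable (fun z => u z * pd (pd v f) g z) (gsn n) :=
    (hu.mul ((hv.pd f).pd g)).integrable _
  rw [e2, integral_add m4 m5] at i2
  have e3 : (fun z => u z * ((pd v f z * z g + v z * (if g = f then (1 : ℝ) else 0))
      - pd (pd v g) f z)) = fun z => (z g * (u z * pd v f z)
        + (if g = f then (1 : ℝ) else 0) * (u z * v z)) - u z * pd (pd v g) f z := by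
    funext z; ring
  have m6 : Integrable (fun z => z g * (u z * pd v f z)
      + (if g = f then (1 : ℝ) else 0) * (u z * v z)) (gsn n) := m1.add (m2.const_mul _)
  rw [e3, integral_sub m6 m3, integral_add m1 (m2.const_mul _),
    integral_const_mul, i2, pd_symm hv g f]
  split_ifs with h
  · ring
  · ring

/-- **Skorokhod isometry** for a vector field with smooth bounded components -/
theorem skor {u : Fin n → (Fin n → ℝ) → ℝ} (hu : ∀ f, SB (u f)) :
    ∫ z, (∑ f, (u f z * z f - pd (u f) f z)) ^ 2 ∂(gsn n)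
      = ∫ z, ∑ f, u f z ^ 2 ∂(gsn n)
        + ∫ z, ∑ f, ∑ g, pd (u f) g z * pd (u g) f z ∂(gsn n) := by
  have hint : ∀ f g, Integrable (fun z => (u f z * z f - pd (u f) f z)
      * (u g z * z g - pd (u g) g z)) (gsn n) := by
    intro f g
    have h1 : ∀ f, EG1 fun z => u f z * z f - pd (u f) f z := by
      intro f
      have h1 : EG1 fun z => u f z * z f := (eg1_sb (hu f)).mul (EG1.coord f)
      have h2 : EG1 fun z => (-1) * pd (u f) f z := (eg1_sb ((hu f).pd f)).const_mul (-1)
      have := h1.add h2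
      simpa only [neg_one_mul, ← sub_eq_add_neg] using this
    have h2 : ∀ f, Continuous fun z : Fin n → ℝ => u f z * z f - pd (u f) f z := fun f =>
      ((hu f).continuous.mul (continuous_apply f)).sub ((hu f).pd f).continuous
    exact ((h1 f).mul (h1 g)).int ((h2 f).mul (h2 g))
  have e1 : (fun z => (∑ f, (u f z * z f - pd (u f) f z)) ^ 2)
      = fun z => ∑ f, ∑ g, (u f z * z f - pd (u f) f z) * (u g z * z g - pd (u g) g z) := by
    funext z
    rw [sq, Finset.sum_mul_sum]
  rw [e1, integral_finsetSum _ fun f _ => integrable_finsetSum _ fun g _ => hint f g]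
  have e2 : ∀ f, ∫ z, ∑ g, (u f z * z f - pd (u f) f z) * (u g z * z g - pd (u g) g z) ∂(gsn n)
      = ∫ z, u f z ^ 2 ∂(gsn n) + ∑ g, ∫ z, pd (u f) g z * pd (u g) f z ∂(gsn n) := by
    intro f
    rw [integral_finsetSum _ fun g _ => hint f g]
    simp_rw [skor_pair (hu f) (hu _) f _]
    rw [Finset.sum_add_distrib]
    congr 1
    rw [Finset.sum_ite_eq' Finset.univ f]
    simp only [Finset.mem_univ, if_true, sq]
  simp_rw [e2]
  rw [Finset.sum_add_distrib, integral_finsetSum _ fun f _ => ((hu f).pow 2).integrable _,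
    integral_finsetSum _ fun f _ => (SB.sum _ fun g _ => ((hu f).pd g).mul ((hu g).pd f)).integrable _]
  congr 1
  refine Finset.sum_congr rfl fun f _ => ?_
  rw [integral_finsetSum _ fun g _ => (((hu f).pd g).mul ((hu g).pd f)).integrable _]

/-- the upper bound used in the application -/
theorem skor_le {u : Fin n → (Fin n → ℝ) → ℝ} (hu : ∀ f, SB (u f)) :
    ∫ z, (∑ f, (u f z * z f - pd (u f) f z)) ^ 2 ∂(gsn n)
      ≤ ∫ z, ∑ f, u f z ^ 2 ∂(gsn n) + ∫ z, ∑ f, ∑ g, pd (u f) g z ^ 2 ∂(gsn n) := by
  rw [skor hu]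
  refine add_le_add le_rfl ?_
  refine integral_mono (SB.integrable (SB.sum _ fun f _ => SB.sum _ fun g _ =>
    ((hu f).pd g).mul ((hu g).pd f)) _) (SB.integrable (SB.sum _ fun f _ => SB.sum _ fun g _ =>
    ((hu f).pd g).pow 2) _) fun z => ?_
  have h1 : ∑ f, ∑ g, pd (u f) g z * pd (u g) f z
      ≤ ∑ f, ∑ g, (pd (u f) g z ^ 2 / 2 + pd (u g) f z ^ 2 / 2) :=
    Finset.sum_le_sum fun f _ => Finset.sum_le_sum fun g _ => by
      nlinarith [sq_nonneg (pd (u f) g z - pd (u g) f z)]
  refine h1.trans (le_of_eq ?_)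
  simp only [Finset.sum_add_distrib, ← Finset.sum_div]
  rw [Finset.sum_comm (f := fun f g => pd (u g) f z ^ 2)]
  ring

end Vale.Agent.P245.H229
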