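import Vale.Agent.P245.H468.ChR
import Vale.Agent.P245.H229.LUPa

/-! # P245 (helper229): Lemma U one step up, the upper bound (purely Gaussian)

`X → Y = X + √t Z`, `W = √c φ(Y) + G`, `l'_w = PH t (RL c φ w)` the channel seen from `X`.
For every smooth bounded matrix field `Q`:
`∫_w |∇ l'_w|²/l'_w ≤ (1+d) c PH t |Dφ(1-Q)|² + (1+1/d) (PH t |Q|²/t + PH t |DQ|²)`. -/

open MeasureTheory Real Set Filter Topology
open scoped ENNReal ContDiff

namespace Vale.Agent.P245.H229

open LS H468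
open E1 hiding RL Ch Inf Co IP DE Pred ms EY_ch

variable {n m : ℕ}

/-! ### affine changes of variables -/

theorem hasFDerivAt_aff (x : Fin n → ℝ) (c : ℝ) (z : Fin n → ℝ) :
    HasFDerivAt (fun z : Fin n → ℝ => x + c • z) (c • ContinuousLinearMap.id ℝ (Fin n → ℝ)) z :=
  ((hasFDerivAt_id z).const_smul c).const_add x

theorem pd_aff {u : (Fin n → ℝ) → ℝ} (hu : Differentiable ℝ u) (x : Fin n → ℝ) (c : ℝ)
    (i : Fin n) : pd (fun z => u (x + c • z)) i = fun z => c * pd u i (x + c • z) := by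
  funext z
  have h := (hu (x + c • z)).hasFDerivAt.comp z (hasFDerivAt_aff x c z)
  have h' : HasFDerivAt (fun z => u (x + c • z)) ((fderiv ℝ u (x + c • z)).comp
      (c • ContinuousLinearMap.id ℝ (Fin n → ℝ))) z := h
  unfold pd
  rw [h'.fderiv]
  simp

theorem sbk_aff (x : Fin n → ℝ) (c : ℝ) : ∀ (k : ℕ) {u : (Fin n → ℝ) → ℝ}, SB u →
    SBk k fun z => u (x + c • z)
  | 0, u, hu => by
    obtain ⟨C, hC⟩ := hu.bdd
    exact ⟨hu.continuous.comp (by fun_prop), C, fun z => hC _⟩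
  | k + 1, u, hu => by
    obtain ⟨C, hC⟩ := hu.bdd
    refine ⟨⟨hu.differentiable.comp (by fun_prop), C, fun z => hC _⟩, fun i => ?_⟩
    rw [pd_aff hu.differentiable]
    exact SBk.const_mul c (sbk_aff x c k (hu.pd i))

theorem sb_aff {u : (Fin n → ℝ) → ℝ} (hu : SB u) (x : Fin n → ℝ) (c : ℝ) :
    SB fun z => u (x + c • z) := fun k => sbk_aff x c k hu

/-! ### the two parts of the score -/

/-- `D_ej = ∂_e φ_j - ∑_f Q_ef ∂_f φ_j` -/
noncomputable def dq (φ : Fin m → (Fin n → ℝ) → ℝ) (Q : Fin n → Fin n → (Fin n → ℝ) → ℝ)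
    (e : Fin n) (j : Fin m) (y : Fin n → ℝ) : ℝ :=
  pd (φ j) e y - ∑ f, Q e f y * pd (φ j) f y

/-- `a_e = h_e - ∑_f Q_ef h_f`, `h = ∇ log l_w` -/
noncomputable def aa (c : ℝ) (φ : Fin m → (Fin n → ℝ) → ℝ) (Q : Fin n → Fin n → (Fin n → ℝ) → ℝ)
    (w : Fin m → ℝ) (e : Fin n) (y : Fin n → ℝ) : ℝ :=
  √c * ∑ j, (w j - √c * φ j y) * dq φ Q e j y

theorem aa_eq (c : ℝ) (φ : Fin m → (Fin n → ℝ) → ℝ) (Q : Fin n → Fin n → (Fin n → ℝ) → ℝ)
    (w : Fin m → ℝ) (e : Fin n) (y : Fin n → ℝ) :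
    aa c φ Q w e y = h0 c φ w e y - ∑ f, Q e f y * h0 c φ w f y := by
  unfold aa h0 dq
  have h1 : ∑ f, Q e f y * (√c * ∑ j, (w j - √c * φ j y) * pd (φ j) f y)
      = √c * ∑ j, (w j - √c * φ j y) * ∑ f, Q e f y * pd (φ j) f y := by
    simp only [Finset.mul_sum]
    rw [Finset.sum_comm]
    refine Finset.sum_congr rfl fun j _ => Finset.sum_congr rfl fun f _ => ?_
    ring
  rw [h1, ← mul_sub, ← Finset.sum_sub_distrib]
  congr 1
  refine Finset.sum_congr rfl fun j _ => ?_
  ring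

/-- the Skorokhod part, in the variable `z`, `y = x + √t z` -/
noncomputable def VV (t : ℝ) (Q : Fin n → Fin n → (Fin n → ℝ) → ℝ) (x : Fin n → ℝ) (e : Fin n)
    (z : Fin n → ℝ) : ℝ :=
  (√t)⁻¹ * ∑ f, (Q e f (x + √t • z) * z f - pd (fun z => Q e f (x + √t • z)) f z)

section

variable {φ : Fin m → (Fin n → ℝ) → ℝ} {Q : Fin n → Fin n → (Fin n → ℝ) → ℝ} {c t d : ℝ}

theorem dq_sb (hφ : ∀ j, SB (φ j)) (hQ : ∀ e f, SB (Q e f)) (e : Fin n) (j : Fin m) :
    SB (dq φ Q e j) :=
  ((hφ j).pd e).sub (SB.sum _ fun f _ => (hQ e f).mul ((hφ j).pd f))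

theorem aa_sb (hφ : ∀ j, SB (φ j)) (hQ : ∀ e f, SB (Q e f)) (w : Fin m → ℝ) (e : Fin n) :
    SB (aa c φ Q w e) := by
  refine SB.const_mul _ (SB.sum _ fun j _ => SB.mul ?_ (dq_sb hφ hQ e j))
  have h1 : SB fun _ : Fin n → ℝ => w j := SB.const _
  exact h1.sub ((hφ j).const_mul _)

theorem VV_eg (hQ : ∀ e f, SB (Q e f)) (x : Fin n → ℝ) (e : Fin n) : EG1 (VV t Q x e) := by
  refine EG1.const_mul (EG1.sum _ fun f _ => ?_) _
  have hu := sb_aff (hQ e f) x (√t)
  have h1 : EG1 fun z : Fin n → ℝ => Q e f (x + √t • z) * z f := (eg1_sb hu).mul (EG1.coord f)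
  have h2 : EG1 fun z => (-1) * pd (fun z => Q e f (x + √t • z)) f z :=
    (eg1_sb (hu.pd f)).const_mul (-1)
  have := h1.add h2
  simpa only [neg_one_mul, ← sub_eq_add_neg] using this

theorem VV_cont (hQ : ∀ e f, SB (Q e f)) (x : Fin n → ℝ) (e : Fin n) :
    Continuous (VV t Q x e) := by
  refine continuous_const.mul (continuous_finsetSum _ fun f _ => ?_)
  have hu := sb_aff (hQ e f) x (√t)
  exact (hu.continuous.mul (continuous_apply f)).sub (hu.pd f).continuous

/-- integration by parts: the contribution of `Q h` -/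
theorem ibp_part (hQ : ∀ e f, SB (Q e f)) (ht : 0 < t) {l : (Fin n → ℝ) → ℝ} (hl : SB l)
    (x : Fin n → ℝ) (e : Fin n) :
    ∫ z, ∑ f, Q e f (x + √t • z) * pd l f (x + √t • z) ∂(gsn n)
      = ∫ z, l (x + √t • z) * VV t Q x e z ∂(gsn n) := by
  have hst : 0 < √t := sqrt_pos.2 ht
  set L : (Fin n → ℝ) → ℝ := fun z => l (x + √t • z) with hL
  have hLs : SB L := sb_aff hl x (√t)
  have hu : ∀ f, SB fun z => Q e f (x + √t • z) := fun f => sb_aff (hQ e f) x (√t)
  have hpL : ∀ f z, pd L f z = √t * pd l f (x + √t • z) := fun f z =>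
    congrFun (pd_aff hl.differentiable x (√t) f) z
  have key : ∀ f, ∫ z, Q e f (x + √t • z) * pd l f (x + √t • z) ∂(gsn n)
      = (√t)⁻¹ * ∫ z, L z * (Q e f (x + √t • z) * z f
        - pd (fun z => Q e f (x + √t • z)) f z) ∂(gsn n) := by
    intro f
    have h1 := ibp_sb ((hu f).mul hLs) f
    have e1 : pd (fun z => Q e f (x + √t • z) * L z) f = fun z => Q e f (x + √t • z) * pd L f z
        + pd (fun z => Q e f (x + √t • z)) f z * L z :=
      LS.pd_mul (hu f).differentiable hLs.differentiable f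
    have n1 : Integrable (fun z => Q e f (x + √t • z) * pd L f z) (gsn n) :=
      ((hu f).mul (hLs.pd f)).integrable _
    have n2 : Integrable (fun z => pd (fun z => Q e f (x + √t • z)) f z * L z) (gsn n) :=
      (((hu f).pd f).mul hLs).integrable _
    have n3 : Integrable (fun z => z f * (Q e f (x + √t • z) * L z)) (gsn n) :=
      ((eg1_sb ((hu f).mul hLs)).mul_coord f).int
        ((continuous_apply f).mul ((hu f).mul hLs).continuous)
    rw [e1, integral_add n1 n2] at h1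
    have e2 : ∫ z, L z * (Q e f (x + √t • z) * z f
        - pd (fun z => Q e f (x + √t • z)) f z) ∂(gsn n)
        = ∫ z, Q e f (x + √t • z) * pd L f z ∂(gsn n) := by
      have e3 : (fun z => L z * (Q e f (x + √t • z) * z f
          - pd (fun z => Q e f (x + √t • z)) f z)) = fun z => z f * (Q e f (x + √t • z) * L z)
            - pd (fun z => Q e f (x + √t • z)) f z * L z := by
        funext z; ring
      rw [e3, integral_sub n3 n2, h1]
      ring
    rw [e2]
    have e4 : (fun z => Q e f (x + √t • z) * pd L f z)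
        = fun z => √t * (Q e f (x + √t • z) * pd l f (x + √t • z)) := by
      funext z; rw [hpL]; ring
    rw [e4, integral_const_mul, ← mul_assoc, inv_mul_cancel₀ hst.ne', one_mul]
  have i1 : ∀ f, Integrable (fun z => Q e f (x + √t • z) * pd l f (x + √t • z)) (gsn n) :=
    fun f => ((hu f).mul (sb_aff (hl.pd f) x (√t))).integrable _
  have i2 : ∀ f, Integrable (fun z => L z * (Q e f (x + √t • z) * z f
        - pd (fun z => Q e f (x + √t • z)) f z)) (gsn n) := by
    intro f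
    have h1 : EG1 fun z : Fin n → ℝ => Q e f (x + √t • z) * z f := (eg1_sb (hu f)).mul (EG1.coord f)
    have h2 : EG1 fun z => (-1) * pd (fun z => Q e f (x + √t • z)) f z :=
      (eg1_sb ((hu f).pd f)).const_mul (-1)
    have h3 := h1.add h2
    have h4 : EG1 fun z => Q e f (x + √t • z) * z f
        - pd (fun z => Q e f (x + √t • z)) f z := by
      simpa only [neg_one_mul, ← sub_eq_add_neg] using h3
    exact ((eg1_sb hLs).mul h4).int (hLs.continuous.mul
      (((hu f).continuous.mul (continuous_apply f)).sub ((hu f).pd f).continuous))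
  rw [integral_finsetSum _ fun f _ => i1 f]
  simp_rw [key]
  rw [← Finset.mul_sum, ← integral_finsetSum _ fun f _ => i2 f, ← integral_const_mul]
  congr 1
  funext z
  unfold VV
  rw [← Finset.mul_sum]
  show (√t)⁻¹ * (l (x + √t • z) * _) = l (x + √t • z) * ((√t)⁻¹ * _)
  ring

/-- Cauchy-Schwarz with a positive weight -/
theorem cs_weight {L g : (Fin n → ℝ) → ℝ} {P : Measure (Fin n → ℝ)} [IsProbabilityMeasure P]
    (hL : ∀ z, 0 < L z) (i0 : Integrable L P) (i1 : Integrable (fun z => L z * g z) P)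
    (i2 : Integrable (fun z => L z * g z ^ 2) P) :
    (∫ z, L z * g z ∂P) ^ 2 / ∫ z, L z ∂P ≤ ∫ z, L z * g z ^ 2 ∂P := by
  have hp : 0 < ∫ z, L z ∂P := by
    rw [integral_pos_iff_support_of_nonneg (fun z => (hL z).le) i0]
    have : Function.support L = Set.univ := by
      ext z; simp [(hL z).ne']
    rw [this]
    simp
  set p := ∫ z, L z ∂P with hpd
  set a := ∫ z, L z * g z ∂P with ha
  have h0 : 0 ≤ ∫ z, (L z * g z ^ 2 - 2 * (a / p) * (L z * g z) + (a / p) ^ 2 * L z) ∂P := by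
    apply integral_nonneg
    intro z
    have e : L z * g z ^ 2 - 2 * (a / p) * (L z * g z) + (a / p) ^ 2 * L z
        = L z * (g z - a / p) ^ 2 := by ring
    show 0 ≤ L z * g z ^ 2 - 2 * (a / p) * (L z * g z) + (a / p) ^ 2 * L z
    rw [e]
    exact mul_nonneg (hL z).le (sq_nonneg _)
  have i4 : Integrable (fun z => L z * g z ^ 2 - 2 * (a / p) * (L z * g z)) P :=
    i2.sub (i1.const_mul _)
  rw [integral_add i4 (i0.const_mul _), integral_sub i2 (i1.const_mul _),
    integral_const_mul, integral_const_mul] at h0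
  have e4 : (a / p) ^ 2 * p = a ^ 2 / p := by field_simp
  have e5 : 2 * (a / p) * a = 2 * (a ^ 2 / p) := by ring
  rw [← hpd, ← ha, e4, e5] at h0
  linarith only [h0]

/-- the two families on the right hand side, for fixed `w, x` -/
noncomputable def G1 (c t : ℝ) (φ : Fin m → (Fin n → ℝ) → ℝ)
    (Q : Fin n → Fin n → (Fin n → ℝ) → ℝ) (x : Fin n → ℝ) (w : Fin m → ℝ) : ℝ :=
  ∫ z, RL c φ w (x + √t • z) * ∑ e, aa c φ Q w e (x + √t • z) ^ 2 ∂(gsn n)

noncomputable def G2 (c t : ℝ) (φ : Fin m → (Fin n → ℝ) → ℝ)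
    (Q : Fin n → Fin n → (Fin n → ℝ) → ℝ) (x : Fin n → ℝ) (w : Fin m → ℝ) : ℝ :=
  ∫ z, RL c φ w (x + √t • z) * ∑ e, VV t Q x e z ^ 2 ∂(gsn n)

theorem pw_le (hφ : ∀ j, SB (φ j)) (hQ : ∀ e f, SB (Q e f)) (hc : 0 ≤ c) (ht : 0 < t)
    (hd : 0 < d) (x : Fin n → ℝ) (w : Fin m → ℝ) :
    (∑ e, pd (PH t (RL c φ w)) e x ^ 2) / PH t (RL c φ w) x
      ≤ (1 + d) * G1 c t φ Q x w + (1 + 1 / d) * G2 c t φ Q x w := by
  have hlP := RL_pos hφ c w
  set L : (Fin n → ℝ) → ℝ := fun z => RL c φ w (x + √t • z) with hLdef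
  have hLs : SB L := sb_aff hlP.sb x (√t)
  have hLp : ∀ z, 0 < L z := fun z => hlP.pos _
  have ha : ∀ e, SB fun z => aa c φ Q w e (x + √t • z) := fun e =>
    sb_aff (aa_sb hφ hQ w e) x (√t)
  have egV := fun e => VV_eg (t := t) hQ x e
  have cV := fun e => VV_cont (t := t) hQ x e
  have egg : ∀ e, EG1 fun z => aa c φ Q w e (x + √t • z) + VV t Q x e z := fun e =>
    (eg1_sb (ha e)).add (egV e)
  have cgg : ∀ e, Continuous fun z => aa c φ Q w e (x + √t • z) + VV t Q x e z := fun e =>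
    (ha e).continuous.add (cV e)
  have i0 : Integrable L (gsn n) := hLs.integrable _
  have i1 : ∀ e, Integrable (fun z => L z * (aa c φ Q w e (x + √t • z) + VV t Q x e z)) (gsn n) :=
    fun e => ((eg1_sb hLs).mul (egg e)).int (hLs.continuous.mul (cgg e))
  have i2 : ∀ e, Integrable (fun z => L z * (aa c φ Q w e (x + √t • z) + VV t Q x e z) ^ 2)
      (gsn n) := fun e => by
    have := ((eg1_sb hLs).mul ((egg e).mul (egg e))).int
      (hLs.continuous.mul ((cgg e).mul (cgg e)))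
    simpa only [sq] using this
  have i3 : ∀ e, Integrable (fun z => L z * aa c φ Q w e (x + √t • z) ^ 2) (gsn n) := fun e =>
    (hLs.mul ((ha e).pow 2)).integrable _
  have i4 : ∀ e, Integrable (fun z => L z * VV t Q x e z ^ 2) (gsn n) := fun e => by
    have := ((eg1_sb hLs).mul ((egV e).mul (egV e))).int
      (hLs.continuous.mul ((cV e).mul (cV e)))
    simpa only [sq] using this
  -- the derivative
  have hpd : ∀ e, pd (PH t (RL c φ w)) e x
      = ∫ z, L z * (aa c φ Q w e (x + √t • z) + VV t Q x e z) ∂(gsn n) := by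
    intro e
    rw [pd_PH hlP.sb]
    have h1 : PH t (pd (RL c φ w) e) x = ∫ z, (L z * aa c φ Q w e (x + √t • z)
        + ∑ f, Q e f (x + √t • z) * pd (RL c φ w) f (x + √t • z)) ∂(gsn n) := by
      unfold PH
      congr 1
      funext z
      have h2 : ∀ f, pd (RL c φ w) f (x + √t • z) = L z * h0 c φ w f (x + √t • z) := fun f =>
        pd_RL hφ hc w f _
      rw [aa_eq]
      simp_rw [h2]
      have h3 : ∑ f, Q e f (x + √t • z) * (L z * h0 c φ w f (x + √t • z))
          = L z * ∑ f, Q e f (x + √t • z) * h0 c φ w f (x + √t • z) := by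
        rw [Finset.mul_sum]
        exact Finset.sum_congr rfl fun f _ => by ring
      rw [h3]
      ring
    have j1 : Integrable (fun z => L z * aa c φ Q w e (x + √t • z)) (gsn n) :=
      (hLs.mul (ha e)).integrable _
    have j2 : Integrable (fun z => ∑ f, Q e f (x + √t • z) * pd (RL c φ w) f (x + √t • z))
        (gsn n) := (SB.sum _ fun f _ => (sb_aff (hQ e f) x (√t)).mul
          (sb_aff (hlP.sb.pd f) x (√t))).integrable _
    have j3 : Integrable (fun z => L z * VV t Q x e z) (gsn n) :=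
      ((eg1_sb hLs).mul (egV e)).int (hLs.continuous.mul (cV e))
    rw [h1, integral_add j1 j2, ibp_part hQ ht hlP.sb x e, ← integral_add j1 j3]
    congr 1
    funext z
    show L z * _ + L z * _ = L z * (_ + _)
    ring
  have hPH : PH t (RL c φ w) x = ∫ z, L z ∂(gsn n) := rfl
  rw [Finset.sum_div, hPH]
  have h5 : ∀ e, pd (PH t (RL c φ w)) e x ^ 2 / ∫ z, L z ∂(gsn n)
      ≤ (1 + d) * ∫ z, L z * aa c φ Q w e (x + √t • z) ^ 2 ∂(gsn n)
        + (1 + 1 / d) * ∫ z, L z * VV t Q x e z ^ 2 ∂(gsn n) := by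
    intro e
    rw [hpd e]
    refine (cs_weight hLp i0 (i1 e) (i2 e)).trans ?_
    rw [← integral_const_mul, ← integral_const_mul,
      ← integral_add ((i3 e).const_mul _) ((i4 e).const_mul _)]
    refine integral_mono (i2 e) (((i3 e).const_mul _).add ((i4 e).const_mul _)) fun z => ?_
    show L z * (aa c φ Q w e (x + √t • z) + VV t Q x e z) ^ 2
      ≤ (1 + d) * (L z * aa c φ Q w e (x + √t • z) ^ 2)
        + (1 + 1 / d) * (L z * VV t Q x e z ^ 2)
    set a := aa c φ Q w e (x + √t • z)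
    set v := VV t Q x e z
    have h6 : (a + v) ^ 2 ≤ (1 + d) * a ^ 2 + (1 + 1 / d) * v ^ 2 := by
      have h7 : 2 * (a * v) ≤ d * a ^ 2 + 1 / d * v ^ 2 := by
        have h8 : 0 ≤ (d * a - v) ^ 2 / d := div_nonneg (sq_nonneg _) hd.le
        have h9 : (d * a - v) ^ 2 / d = d * a ^ 2 + 1 / d * v ^ 2 - 2 * (a * v) := by
          field_simp
          ring
        linarith only [h8, h9]
      nlinarith only [h7]
    calc L z * (a + v) ^ 2 ≤ L z * ((1 + d) * a ^ 2 + (1 + 1 / d) * v ^ 2) :=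
          mul_le_mul_of_nonneg_left h6 (hLp z).le
      _ = _ := by ring
  refine (Finset.sum_le_sum fun e _ => h5 e).trans (le_of_eq ?_)
  rw [Finset.sum_add_distrib, ← Finset.mul_sum, ← Finset.mul_sum,
    ← integral_finsetSum _ fun e _ => i3 e, ← integral_finsetSum _ fun e _ => i4 e]
  unfold G1 G2
  simp only [Finset.mul_sum, hLdef]

end

end Vale.Agent.P245.H229
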