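import Vale.Agent.P245.H229.LUPb

/-! # P245 (helper229): Lemma U one step up, the upper bound, integrated over the output -/

open MeasureTheory Real Set Filter Topology
open scoped ENNReal ContDiff

namespace Vale.Agent.P245.H229

open LS H468
open E1 hiding RL Ch Inf Co IP DE Pred ms EY_ch

variable {n m : ℕ}

/-- `|Dφ (1 - Q)|²` -/
noncomputable def A2 (φ : Fin m → (Fin n → ℝ) → ℝ) (Q : Fin n → Fin n → (Fin n → ℝ) → ℝ)
    (y : Fin n → ℝ) : ℝ := ∑ j, ∑ e, (pd (φ j) e y - ∑ f, Q e f y * pd (φ j) f y) ^ 2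

/-- `|Q|²` -/
noncomputable def q2 (Q : Fin n → Fin n → (Fin n → ℝ) → ℝ) (y : Fin n → ℝ) : ℝ :=
  ∑ e, ∑ f, Q e f y ^ 2

/-- `|DQ|²` -/
noncomputable def B2 (Q : Fin n → Fin n → (Fin n → ℝ) → ℝ) (y : Fin n → ℝ) : ℝ :=
  ∑ e, ∑ f, ∑ g, pd (Q e f) g y ^ 2

section

variable {φ : Fin m → (Fin n → ℝ) → ℝ} {Q : Fin n → Fin n → (Fin n → ℝ) → ℝ} {c t d : ℝ}

theorem A2_sb (hφ : ∀ j, SB (φ j)) (hQ : ∀ e f, SB (Q e f)) : SB (A2 φ Q) :=
  SB.sum _ fun j _ => SB.sum _ fun e _ => (dq_sb hφ hQ e j).pow 2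

theorem q2_sb (hQ : ∀ e f, SB (Q e f)) : SB (q2 Q) :=
  SB.sum _ fun e _ => SB.sum _ fun f _ => (hQ e f).pow 2

theorem B2_sb (hQ : ∀ e f, SB (Q e f)) : SB (B2 Q) :=
  SB.sum _ fun e _ => SB.sum _ fun f _ => SB.sum _ fun g _ => ((hQ e f).pd g).pow 2

/-- second moment of `a_e` for a fixed state -/
theorem aa_sq_int (hc : 0 ≤ c) (y : Fin n → ℝ) :
    ∫ w, RL c φ w y * ∑ e, aa c φ Q w e y ^ 2 ∂(gsn m) = c * A2 φ Q y := by
  have e0 : (fun w => RL c φ w y * ∑ e, aa c φ Q w e y ^ 2)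
      = fun w => lr c w (fv φ y) * (∑ e, (√c * ∑ j, (w j - √c * fv φ y j) * dq φ Q e j y) ^ 2) :=
    rfl
  rw [e0, integral_lr hc (fv φ y)]
  have e : ∀ z : Fin m → ℝ, ∑ e, (√c * ∑ j, ((z j + √c * fv φ y j) - √c * fv φ y j)
      * dq φ Q e j y) ^ 2 = ∑ e, (0 + ∑ j, z j * (√c * dq φ Q e j y)) ^ 2 := by
    intro z
    apply Finset.sum_congr rfl; intro e _
    congr 1
    rw [Finset.mul_sum, zero_add]
    apply Finset.sum_congr rfl; intro j _; ring
  simp_rw [e]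
  have hi : ∀ e : Fin n, Integrable (fun z : Fin m → ℝ =>
      (0 + ∑ j, z j * (√c * dq φ Q e j y)) ^ 2) (gsn m) := by
    intro e
    have hl : EG1 fun z : Fin m → ℝ => 0 + ∑ j, z j * (√c * dq φ Q e j y) := by
      refine (EG1.const _).add (EG1.sum (n := m) Finset.univ
        (φ := fun j z => z j * (√c * dq φ Q e j y)) fun j _ => ?_)
      have := (EG1.coord (n := m) j).const_mul (√c * dq φ Q e j y)
      simpa [mul_comm] using this
    have := (hl.mul hl).integrable (by (clear * -; exact Continuous.aestronglyMeasurable (by fun_prop)))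
    simpa only [sq] using this
  rw [integral_finsetSum _ fun e _ => hi e]
  simp_rw [gauss_affine_sq]
  unfold A2
  rw [Finset.sum_comm, Finset.mul_sum]
  apply Finset.sum_congr rfl; intro e _
  rw [Finset.mul_sum, zero_pow (by norm_num), zero_add]
  apply Finset.sum_congr rfl; intro j _
  rw [mul_pow, sq_sqrt hc]
  rfl

theorem aa_jm (hφ : ∀ j, SB (φ j)) (hQ : ∀ e f, SB (Q e f)) (e : Fin n) :
    Measurable (Function.uncurry fun (w : Fin m → ℝ) (y : Fin n → ℝ) => aa c φ Q w e y) := by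
  have h1 : ∀ j, Measurable fun q : (Fin m → ℝ) × (Fin n → ℝ) => φ j q.2 := fun j =>
    (hφ j).measurable.comp measurable_snd
  have h2 : ∀ j, Measurable fun q : (Fin m → ℝ) × (Fin n → ℝ) => q.1 j := fun j =>
    (measurable_pi_apply j).comp measurable_fst
  have h3 : ∀ j, Measurable fun q : (Fin m → ℝ) × (Fin n → ℝ) => dq φ Q e j q.2 := fun j =>
    (dq_sb hφ hQ e j).measurable.comp measurable_snd
  unfold Function.uncurry aa
  exact (Finset.measurable_sum _ fun j _ =>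
    ((h2 j).sub ((h1 j).const_mul _)).mul (h3 j)).const_mul _

theorem aa_bd (hφ : ∀ j, SB (φ j)) (hQ : ∀ e f, SB (Q e f)) :
    ∃ C, 0 ≤ C ∧ ∀ w e y, |aa c φ Q w e y| ≤ C * gw m w := by
  obtain ⟨B, hB0, hB⟩ := fv_bdd hφ
  have hWb : ∃ B', 0 ≤ B' ∧ ∀ (y : Fin n → ℝ) (e : Fin n) (j : Fin m), |dq φ Q e j y| ≤ B' := by
    have h : ∀ e j, ∃ C, 0 ≤ C ∧ ∀ y, |dq φ Q e j y| ≤ C := fun e j => (dq_sb hφ hQ e j).bdd'
    choose C hC0 hC using h
    refine ⟨∑ e, ∑ j, C e j, Finset.sum_nonneg fun e _ => Finset.sum_nonneg fun j _ => hC0 e j,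
      fun y e j => (hC e j y).trans ?_⟩
    exact (Finset.single_le_sum (f := fun j => C e j) (fun j _ => hC0 e j)
      (Finset.mem_univ j)).trans (Finset.single_le_sum (f := fun e => ∑ j, C e j)
      (fun e _ => Finset.sum_nonneg fun j _ => hC0 e j) (Finset.mem_univ e))
  obtain ⟨B', hB0', hB'⟩ := hWb
  have hst := sqrt_nonneg c
  refine ⟨√c * ((1 + m * (√c * B)) * B'), by positivity, fun w e y => ?_⟩
  unfold aa
  rw [abs_mul, abs_of_nonneg hst, mul_assoc, mul_assoc]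
  apply mul_le_mul_of_nonneg_left _ hst
  have h1 : |∑ j, (w j - √c * φ j y) * dq φ Q e j y| ≤ ∑ j, (|w j| + √c * B) * B' := by
    refine (Finset.abs_sum_le_sum_abs _ _).trans (Finset.sum_le_sum fun j _ => ?_)
    refine abs_mul_le_of ?_ (hB' y e j)
    refine (abs_sub _ _).trans (add_le_add le_rfl ?_)
    rw [abs_mul, abs_of_nonneg hst]
    exact mul_le_mul_of_nonneg_left (hB y j) hst
  refine h1.trans ?_
  rw [← Finset.sum_mul, Finset.sum_add_distrib]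
  simp only [Finset.sum_const, Finset.card_univ, Fintype.card_fin, nsmul_eq_mul]
  have hS : 0 ≤ ∑ j, |w j| := Finset.sum_nonneg fun j _ => abs_nonneg _
  unfold gw
  have h2 : 0 ≤ (m : ℝ) * (√c * B) := by positivity
  have h3 : (∑ j, |w j|) + m * (√c * B) ≤ (1 + m * (√c * B)) * (1 + ∑ j, |w j|) := by
    nlinarith [mul_nonneg h2 hS]
  calc ((∑ j, |w j|) + m * (√c * B)) * B'
      ≤ ((1 + m * (√c * B)) * (1 + ∑ j, |w j|)) * B' := mul_le_mul_of_nonneg_right h3 hB0'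
    _ = _ := by ring

/-- the integrand of `G1` -/
noncomputable def g1 (c t : ℝ) (φ : Fin m → (Fin n → ℝ) → ℝ)
    (Q : Fin n → Fin n → (Fin n → ℝ) → ℝ) (x : Fin n → ℝ) (w : Fin m → ℝ) (z : Fin n → ℝ) : ℝ :=
  RL c φ w (x + √t • z) * ∑ e, aa c φ Q w e (x + √t • z) ^ 2

theorem g1_meas (hφ : ∀ j, SB (φ j)) (hQ : ∀ e f, SB (Q e f)) (hc : 0 ≤ c) (x : Fin n → ℝ) :
    Measurable (Function.uncurry (g1 c t φ Q x)) := by
  have hp : Measurable fun q : (Fin m → ℝ) × (Fin n → ℝ) => (q.1, x + √t • q.2) :=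
    measurable_fst.prodMk (by fun_prop)
  have h1 := (ch_RL hφ hc).meas.comp hp
  have h2 : ∀ e, Measurable fun q : (Fin m → ℝ) × (Fin n → ℝ) => aa c φ Q q.1 e (x + √t • q.2) :=
    fun e => (aa_jm hφ hQ e).comp hp
  exact h1.mul (Finset.measurable_sum _ fun e _ => (h2 e).pow_const 2)

theorem g1_bd (hφ : ∀ j, SB (φ j)) (hQ : ∀ e f, SB (Q e f)) (hc : 0 ≤ c) (x : Fin n → ℝ) :
    ∃ C K, ∀ w z, |g1 c t φ Q x w z| ≤ C * exp (K * gw m w) := by
  obtain ⟨K, hK0, hK⟩ := (ch_RL hφ hc).bd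
  obtain ⟨C, hC0, hC⟩ := aa_bd (c := c) hφ hQ
  refine ⟨1 * n, K + 2 * C, fun w z => ?_⟩
  unfold g1
  have hsum : |∑ e, aa c φ Q w e (x + √t • z) ^ 2| ≤ n * exp (2 * C * gw m w) := by
    rw [abs_of_nonneg (Finset.sum_nonneg fun _ _ => sq_nonneg _)]
    calc ∑ e, aa c φ Q w e (x + √t • z) ^ 2 ≤ ∑ _e : Fin n, exp (2 * C * gw m w) := by
          apply Finset.sum_le_sum
          intro e _
          have h1 := (hC w e (x + √t • z)).trans
            (show C * gw m w ≤ exp (C * gw m w) by linarith [add_one_le_exp (C * gw m w)])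
          have h2 := pow_le_pow_left₀ (abs_nonneg _) h1 2
          rw [sq_abs] at h2
          refine h2.trans (le_of_eq ?_)
          rw [← exp_nat_mul]
          congr 1
          push_cast
          ring
      _ = _ := by simp only [Finset.sum_const, Finset.card_univ, Fintype.card_fin, nsmul_eq_mul]
  have hR : |RL c φ w (x + √t • z)| ≤ exp (K * gw m w) := by
    rw [abs_of_pos ((RL_pos hφ c w).pos _)]
    exact (hK w _).2
  refine (abs_mul_le_of hR hsum).trans (le_of_eq ?_)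
  rw [add_mul, exp_add]
  ring

theorem G1_int (hφ : ∀ j, SB (φ j)) (hQ : ∀ e f, SB (Q e f)) (hc : 0 ≤ c) (x : Fin n → ℝ) :
    Integrable (G1 c t φ Q x) (gsn m) ∧
    ∫ w, G1 c t φ Q x w ∂(gsn m) = c * PH t (A2 φ Q) x := by
  obtain ⟨C, K, hb⟩ := g1_bd (t := t) hφ hQ hc x
  have hm := g1_meas (t := t) hφ hQ hc x
  refine ⟨int_out_of_bd (P := gsn n) (out_gw m) hm hb, ?_⟩
  have h := swap_of_bd (P := gsn n) (out_gw m) hm hb
  have e1 : ∫ w, G1 c t φ Q x w ∂(gsn m) = ∫ w, ∫ z, g1 c t φ Q x w z ∂(gsn n) ∂(gsn m) := rfl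
  rw [e1, h]
  have e2 : ∀ z, ∫ w, g1 c t φ Q x w z ∂(gsn m) = c * A2 φ Q (x + √t • z) := fun z =>
    aa_sq_int hc _
  simp_rw [e2]
  rw [integral_const_mul]
  rfl

/-- the Skorokhod part, integrated -/
noncomputable def vs (t : ℝ) (Q : Fin n → Fin n → (Fin n → ℝ) → ℝ) (x z : Fin n → ℝ) : ℝ :=
  ∑ e, VV t Q x e z ^ 2

theorem vs_int (hQ : ∀ e f, SB (Q e f)) (x : Fin n → ℝ) : Integrable (vs t Q x) (gsn n) := by
  refine integrable_finsetSum _ fun e _ => ?_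
  have := ((VV_eg (t := t) hQ x e).mul (VV_eg (t := t) hQ x e)).int
    ((VV_cont hQ x e).mul (VV_cont hQ x e))
  simpa only [sq] using this

theorem vs_le (hQ : ∀ e f, SB (Q e f)) (ht : 0 < t) (x : Fin n → ℝ) :
    ∫ z, vs t Q x z ∂(gsn n) ≤ PH t (q2 Q) x / t + PH t (B2 Q) x := by
  have hu : ∀ e f, SB fun z => Q e f (x + √t • z) := fun e f => sb_aff (hQ e f) x (√t)
  have hi : ∀ e, Integrable (fun z => VV t Q x e z ^ 2) (gsn n) := fun e => by
    have := ((VV_eg (t := t) hQ x e).mul (VV_eg (t := t) hQ x e)).int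
      ((VV_cont hQ x e).mul (VV_cont hQ x e))
    simpa only [sq] using this
  have e1 : ∫ z, vs t Q x z ∂(gsn n) = ∑ e, ∫ z, VV t Q x e z ^ 2 ∂(gsn n) :=
    integral_finsetSum _ fun e _ => hi e
  have e2 : ∀ e, ∫ z, VV t Q x e z ^ 2 ∂(gsn n) ≤ t⁻¹ * ∫ z, ∑ f, Q e f (x + √t • z) ^ 2 ∂(gsn n)
      + ∫ z, ∑ f, ∑ g, pd (Q e f) g (x + √t • z) ^ 2 ∂(gsn n) := by
    intro e
    have h1 := skor_le (hu e)
    have h2 : ∫ z, VV t Q x e z ^ 2 ∂(gsn n)
        = t⁻¹ * ∫ z, (∑ f, (Q e f (x + √t • z) * z f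
          - pd (fun z => Q e f (x + √t • z)) f z)) ^ 2 ∂(gsn n) := by
      rw [← integral_const_mul]
      congr 1
      funext z
      unfold VV
      rw [mul_pow, inv_pow, sq_sqrt ht.le]
    have h3 : ∫ z, ∑ f, ∑ g, pd (fun z => Q e f (x + √t • z)) g z ^ 2 ∂(gsn n)
        = t * ∫ z, ∑ f, ∑ g, pd (Q e f) g (x + √t • z) ^ 2 ∂(gsn n) := by
      rw [← integral_const_mul]
      congr 1
      funext z
      rw [Finset.mul_sum]
      refine Finset.sum_congr rfl fun f _ => ?_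
      rw [Finset.mul_sum]
      refine Finset.sum_congr rfl fun g _ => ?_
      rw [pd_aff (hQ e f).differentiable, mul_pow, sq_sqrt ht.le]
    rw [h3] at h1
    rw [h2]
    have h4 := mul_le_mul_of_nonneg_left h1 (inv_pos.2 ht).le
    refine h4.trans (le_of_eq ?_)
    rw [mul_add, ← mul_assoc t⁻¹ t, inv_mul_cancel₀ ht.ne', one_mul]
  rw [e1]
  refine (Finset.sum_le_sum fun e _ => e2 e).trans (le_of_eq ?_)
  rw [Finset.sum_add_distrib, ← Finset.mul_sum]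
  have e3 : ∑ e, ∫ z, ∑ f, Q e f (x + √t • z) ^ 2 ∂(gsn n) = PH t (q2 Q) x := by
    unfold PH q2
    rw [integral_finsetSum _ fun e _ => (SB.sum _ fun f _ => (hu e f).pow 2).integrable _]
  have e4 : ∑ e, ∫ z, ∑ f, ∑ g, pd (Q e f) g (x + √t • z) ^ 2 ∂(gsn n) = PH t (B2 Q) x := by
    unfold PH B2
    rw [integral_finsetSum _ fun e _ => (SB.sum _ fun f _ => SB.sum _ fun g _ =>
      (sb_aff ((hQ e f).pd g) x (√t)).pow 2).integrable _]
  rw [e3, e4]
  ring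

theorem G2_int (hφ : ∀ j, SB (φ j)) (hQ : ∀ e f, SB (Q e f)) (hc : 0 ≤ c) (x : Fin n → ℝ) :
    Integrable (G2 c t φ Q x) (gsn m) ∧
    ∫ w, G2 c t φ Q x w ∂(gsn m) = ∫ z, vs t Q x z ∂(gsn n) := by
  obtain ⟨K, hK0, hK⟩ := (ch_RL hφ hc).bd
  have hp : Measurable fun q : (Fin m → ℝ) × (Fin n → ℝ) => (q.1, x + √t • q.2) :=
    measurable_fst.prodMk (by fun_prop)
  have hm : Measurable (Function.uncurry fun (w : Fin m → ℝ) (z : Fin n → ℝ) =>
      RL c φ w (x + √t • z) * vs t Q x z) := by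
    have hv : Measurable (vs t Q x) :=
      Finset.measurable_sum _ fun e _ => ((VV_cont hQ x e).measurable).pow_const 2
    exact ((ch_RL hφ hc).meas.comp hp).mul (hv.comp measurable_snd)
  have hi : Integrable (Function.uncurry fun (w : Fin m → ℝ) (z : Fin n → ℝ) =>
      RL c φ w (x + √t • z) * vs t Q x z) ((gsn m).prod (gsn n)) := by
    have h1 := (((out_gw m).int K)).mul_prod (vs_int (t := t) hQ x)
    refine h1.mono' hm.aestronglyMeasurable (Eventually.of_forall fun q => ?_)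
    rw [norm_eq_abs]
    have hv : 0 ≤ vs t Q x q.2 := Finset.sum_nonneg fun _ _ => sq_nonneg _
    show |RL c φ q.1 (x + √t • q.2) * vs t Q x q.2| ≤ exp (K * gw m q.1) * vs t Q x q.2
    rw [abs_mul, abs_of_nonneg hv, abs_of_pos ((RL_pos hφ c q.1).pos _)]
    exact mul_le_mul_of_nonneg_right (hK _ _).2 hv
  refine ⟨hi.integral_prod_left, ?_⟩
  have e1 : ∫ w, G2 c t φ Q x w ∂(gsn m)
      = ∫ w, ∫ z, RL c φ w (x + √t • z) * vs t Q x z ∂(gsn n) ∂(gsn m) := rfl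
  rw [e1, integral_integral_swap hi]
  congr 1
  funext z
  rw [integral_mul_const, (ch_RL hφ hc).one, one_mul]

/-- **the pointwise upper bound, integrated over the output** -/
theorem JF_pt (hφ : ∀ j, SB (φ j)) (hQ : ∀ e f, SB (Q e f)) (hc : 0 ≤ c) (ht : 0 < t)
    (hd : 0 < d) (x : Fin n → ℝ)
    (hi : Integrable (fun w => (∑ e, pd (PH t (RL c φ w)) e x ^ 2) / PH t (RL c φ w) x) (gsn m)) :
    ∫ w, (∑ e, pd (PH t (RL c φ w)) e x ^ 2) / PH t (RL c φ w) x ∂(gsn m)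
      ≤ (1 + d) * (c * PH t (A2 φ Q) x)
        + (1 + 1 / d) * (PH t (q2 Q) x / t + PH t (B2 Q) x) := by
  obtain ⟨i1, v1⟩ := G1_int (t := t) hφ hQ hc x
  obtain ⟨i2, v2⟩ := G2_int (t := t) hφ hQ hc x
  have h := integral_mono hi ((i1.const_mul (1 + d)).add (i2.const_mul (1 + 1 / d)))
    fun w => pw_le hφ hQ hc ht hd x w
  refine h.trans ?_
  have e1 : ∫ w, (fun w => (1 + d) * G1 c t φ Q x w) w + (fun w => (1 + 1 / d) * G2 c t φ Q x w) w
      ∂(gsn m) = (1 + d) * (c * PH t (A2 φ Q) x) + (1 + 1 / d) * ∫ z, vs t Q x z ∂(gsn n) := by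
    rw [integral_add (i1.const_mul (1 + d)) (i2.const_mul (1 + 1 / d)), integral_const_mul,
      integral_const_mul, v1, v2]
  have e2 : ∫ w, ((fun w => (1 + d) * G1 c t φ Q x w) + (fun w => (1 + 1 / d) * G2 c t φ Q x w)) w
      ∂(gsn m) = (1 + d) * (c * PH t (A2 φ Q) x) + (1 + 1 / d) * ∫ z, vs t Q x z ∂(gsn n) := e1
  rw [e2]
  have h3 : 0 ≤ 1 + 1 / d := by positivity
  have h4 := mul_le_mul_of_nonneg_left (vs_le hQ ht x) h3
  linarith only [h4]

end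

end Vale.Agent.P245.H229
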