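import Vale.Agent.P245.H229.LUPc

/-! # P245 (helper229): Lemma U one step up, the upper bound (U'1) -/

open MeasureTheory Real Set Filter Topology
open scoped ENNReal ContDiff

namespace Vale.Agent.P245.H229

open LS H468
open E1 hiding RL Ch Inf Co IP DE Pred ms EY_ch

variable {n m : ℕ}

section

variable {φ : Fin m → (Fin n → ℝ) → ℝ} {Q : Fin n → Fin n → (Fin n → ℝ) → ℝ} {c t d : ℝ}

/-- the channel seen from the lower level is smooth -/
theorem sch_up (hφ : ∀ j, SB (φ j)) (hc : 0 ≤ c) (t : ℝ) :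
    SCh (gsn m) (gw m) (fun w : Fin m → ℝ => PH (n := n) t (RL c φ w)) where
  ch := by
    have h := Ch.tch (MO_PH (n := n) (out_gw m) t) (BM.const (n := n) 1)
      ⟨1, one_pos, fun _ => le_rfl⟩ (ch_RL hφ hc)
    have e : H468.tch (PH (n := n) t) (fun _ => 1) (RL c φ)
        = fun w => PH t (RL c φ w) := by
      funext w y
      unfold H468.tch
      simp only [one_mul]
      rw [PH_const, div_one]
    rwa [e] at h
  pos w := PH_pos (RL_pos hφ c w) t
  pdm i := by
    have hm := (sch_RL (n := n) hφ hc).pdm i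
    have h : Measurable (fun p : ((Fin m → ℝ) × (Fin n → ℝ)) × (Fin n → ℝ) =>
        pd (RL c φ p.1.1) i (p.1.2 + √t • p.2)) :=
      hm.comp (Measurable.prodMk (by fun_prop) (by fun_prop) :
        Measurable fun p : ((Fin m → ℝ) × (Fin n → ℝ)) × (Fin n → ℝ) =>
          (p.1.1, p.1.2 + √t • p.2))
    have e : (Function.uncurry fun (w : Fin m → ℝ) (y : Fin n → ℝ) =>
        pd (PH t (RL c φ w)) i y)
        = fun q : (Fin m → ℝ) × (Fin n → ℝ) =>
          ∫ z, pd (RL c φ q.1) i (q.2 + √t • z) ∂(gsn n) := by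
      funext q
      show pd (PH t (RL c φ q.1)) i q.2 = _
      rw [pd_PH (RL_pos hφ c q.1).sb]
      rfl
    rw [e]
    exact (h.stronglyMeasurable.integral_prod_right' (ν := gsn n)).measurable
  pdb := by
    obtain ⟨K, hK0, hK⟩ := (sch_RL (n := n) hφ hc).pdb
    refine ⟨K, hK0, fun w y i => ?_⟩
    rw [pd_PH (RL_pos hφ c w).sb]
    exact PH_abs_le (fun y => hK w y i) t y

variable {μ : Measure (Fin n → ℝ)} [IsProbabilityMeasure μ] {R b s : ℝ} {N : (Fin n → ℝ) → ℝ}

/-- **(U'1)**: the Fisher information of the channel `W = √c φ(Y) + G` seen from `X`,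
`Y = X + √t Z`, against an arbitrary smooth bounded matrix field `Q` of `Y`. -/
theorem JF_up (h : CSupp μ R) (hb : 0 < b) (hbs : b < s) (hN : Pos N) (hφ : ∀ j, SB (φ j))
    (hQ : ∀ e f, SB (Q e f)) (hc : 0 ≤ c) (hd : 0 < d) :
    JF (gsn m) μ b N (fun w => PH (s - b) (RL c φ w))
      ≤ (1 + d) * (c * EY μ s fun y => UL μ b s N y * A2 φ Q y)
        + (1 + 1 / d) * ((EY μ s fun y => UL μ b s N y * q2 Q y) / (s - b)
          + EY μ s fun y => UL μ b s N y * B2 Q y) := by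
  have ht : 0 < s - b := sub_pos.2 hbs
  set t := s - b with htd
  have hl := sch_up (n := n) hφ hc t
  obtain ⟨C, K, hbd⟩ := JF_bd (γ := gsn m) (out_gw m) hN hl
  have hA := A2_sb hφ hQ
  have hq := q2_sb hQ
  have hB := B2_sb hQ
  have e0 : ∀ Φ : (Fin n → ℝ) → ℝ, SB Φ → (EY μ s fun y => UL μ b s N y * Φ y)
      = EY μ b fun y => N y * PH t Φ y := fun Φ hΦ =>
    E1.EY_UL h (SB.bm hN.sb) (SB.bm hΦ) hb hbs.le
  rw [e0 _ hA, e0 _ hq, e0 _ hB]
  have hmeas := JF_meas (γ := gsn m) (g := gw m) hN hl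
  -- integrability in the output at a fixed point
  have hdiv : ∀ y, Integrable (fun w => (∑ e, pd (PH t (RL c φ w)) e y ^ 2)
      / PH t (RL c φ w) y) (gsn m) := by
    intro y
    have h1 := int_in_of_bd (γ := gsn m) (out_gw m) hmeas hbd y
    have h2 := h1.const_mul (N y)⁻¹
    refine h2.congr (Eventually.of_forall fun w => ?_)
    have hy := (hN.pos y).ne'
    show (N y)⁻¹ * (N y * ((∑ e, pd (PH t (RL c φ w)) e y ^ 2) / PH t (RL c φ w) y)) = _
    rw [inv_mul_cancel_left₀ hy]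
  unfold JF
  have e1 : (fun w => EY μ b (fun y => N y * ((∑ i, pd (PH t (RL c φ w)) i y ^ 2)
      / PH t (RL c φ w) y)))
      = fun w => ∫ y, N y * ((∑ i, pd (PH t (RL c φ w)) i y ^ 2) / PH t (RL c φ w) y)
        ∂(lw μ b) := by
    funext w
    exact EY_eq_lw_sb μ b (JF_sb hN hl w)
  rw [e1, swap_of_bd (P := lw μ b) (out_gw m) hmeas hbd]
  have hP : SB fun y => N y * ((1 + d) * (c * PH t (A2 φ Q) y)
      + (1 + 1 / d) * (t⁻¹ * PH t (q2 Q) y + PH t (B2 Q) y)) :=
    hN.sb.mul ((((PH_sb hA t).const_mul c).const_mul (1 + d)).add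
      ((((PH_sb hq t).const_mul t⁻¹).add (PH_sb hB t)).const_mul (1 + 1 / d)))
  have e2 : (1 + d) * (c * EY μ b fun y => N y * PH t (A2 φ Q) y)
      + (1 + 1 / d) * ((EY μ b fun y => N y * PH t (q2 Q) y) / t
        + EY μ b fun y => N y * PH t (B2 Q) y)
      = ∫ y, N y * ((1 + d) * (c * PH t (A2 φ Q) y)
        + (1 + 1 / d) * (t⁻¹ * PH t (q2 Q) y + PH t (B2 Q) y)) ∂(lw μ b) := by
    rw [← EY_eq_lw_sb μ b hP]
    have s1 : SB fun y => N y * PH t (A2 φ Q) y := hN.sb.mul (PH_sb hA t)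
    have s2 : SB fun y => N y * PH t (q2 Q) y := hN.sb.mul (PH_sb hq t)
    have s3 : SB fun y => N y * PH t (B2 Q) y := hN.sb.mul (PH_sb hB t)
    have e3 : (fun y => N y * ((1 + d) * (c * PH t (A2 φ Q) y)
        + (1 + 1 / d) * (t⁻¹ * PH t (q2 Q) y + PH t (B2 Q) y)))
        = fun y => ((1 + d) * c) * (N y * PH t (A2 φ Q) y)
          + (((1 + 1 / d) * t⁻¹) * (N y * PH t (q2 Q) y)
          + (1 + 1 / d) * (N y * PH t (B2 Q) y)) := by
      funext y; ring
    rw [e3, EY_add μ b (s1.const_mul _) ((s2.const_mul _).add (s3.const_mul _)),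
      EY_add μ b (s2.const_mul _) (s3.const_mul _), EY_const_mul, EY_const_mul, EY_const_mul]
    ring
  rw [e2]
  refine integral_mono ?_ (hP.integrable _) fun y => ?_
  · have hi := int_prod_of_bd (P := lw μ b) (γ := gsn m) (out_gw m) hmeas hbd
    exact hi.integral_prod_right
  · show ∫ w, N y * ((∑ i, pd (PH t (RL c φ w)) i y ^ 2) / PH t (RL c φ w) y) ∂(gsn m) ≤ _
    rw [integral_const_mul]
    refine mul_le_mul_of_nonneg_left ?_ (hN.pos y).le
    refine (JF_pt hφ hQ hc ht hd y (hdiv y)).trans (le_of_eq ?_)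
    ring

end

end Vale.Agent.P245.H229
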