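import Vale.Agent.P245.H229.LUPd
import Vale.Agent.P245.H468.UP
import Vale.Agent.P245.H991.Spec

/-! # P245 (helper229): Lemma U for the upper end of a Gaussian step (line U)

If `N = UL μ b r N_b` (the law at level `r` is the heat flow of a law at level `b = r - t`) and the
law at level `b` has slack `≤ be`, then `LUp μ κ r (r - b) be 0 N`. -/

open MeasureTheory Real Set Filter Topology
open scoped ENNReal ContDiff

namespace Vale.Agent.P245.H229

open LS E1 H485 H991 Vale.Agent.P254.SP620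

variable {n m : ℕ}

theorem sqrt_add_le' {x y : ℝ} (hx : 0 ≤ x) (hy : 0 ≤ y) : √(x + y) ≤ √x + √y := by
  rw [sqrt_le_left (by positivity)]
  nlinarith [sq_sqrt hx, sq_sqrt hy, mul_nonneg (sqrt_nonneg x) (sqrt_nonneg y)]

/-- the infimum over the Young parameter -/
theorem le_sq_of_young {J a v : ℝ} (ha : 0 ≤ a) (hv : 0 ≤ v)
    (h : ∀ d : ℝ, 0 < d → J ≤ (1 + d) * a + (1 + 1 / d) * v) : J ≤ (√a + √v) ^ 2 := by
  refine le_of_forall_pos_le_add fun ε hε => ?_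
  have hsa := sqrt_nonneg a
  have hsv := sqrt_nonneg v
  set η : ℝ := ε / (√a + √v + 1) with hηd
  have hη : 0 < η := by positivity
  have hηε : η * (√a + √v) ≤ ε := by
    have h1 : η * (√a + √v + 1) = ε := by
      rw [hηd]
      field_simp
    nlinarith
  have h1 : a / (√a + η) ≤ √a := by
    rw [div_le_iff₀ (by positivity)]
    nlinarith [mul_self_sqrt ha, mul_nonneg hsa hη.le]
  have h2 : v / (√v + η) ≤ √v := by
    rw [div_le_iff₀ (by positivity)]
    nlinarith [mul_self_sqrt hv, mul_nonneg hsv hη.le]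
  have e1 : (√v + η) / (√a + η) * a = (√v + η) * (a / (√a + η)) := by ring
  have e2 : 1 / ((√v + η) / (√a + η)) * v = (√a + η) * (v / (√v + η)) := by
    rw [one_div, inv_div]
    ring
  have h3 : (√v + η) * (a / (√a + η)) ≤ (√v + η) * √a :=
    mul_le_mul_of_nonneg_left h1 (by positivity)
  have h4 : (√a + η) * (v / (√v + η)) ≤ (√a + η) * √v :=
    mul_le_mul_of_nonneg_left h2 (by positivity)
  have h5 := sq_sqrt ha
  have h6 := sq_sqrt hv
  have h7 := h ((√v + η) / (√a + η)) (by positivity)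
  rw [add_mul, add_mul, e1, e2, one_mul, one_mul] at h7
  nlinarith

variable {ρ0 : (Fin n → ℝ) → ℝ} {R b r κ be : ℝ} {N : (Fin n → ℝ) → ℝ}

theorem mFl_nonneg (hLC : LCd ρ0) [hprob : IsProbabilityMeasure (mu ρ0)] (h : CSupp (mu ρ0) R)
    (hr : 0 < r) (hN : Pos N) {Q : (Fin n → ℝ) → Matrix (Fin n) (Fin n) ℝ} (hQ : SBm Q) :
    0 ≤ mFl (mu ρ0) r N Q := by
  have hPV := (thR' n (mu ρ0) R h).2.1
  have e : mFl (mu ρ0) r N Q = ∑ k, BI (mu ρ0) r N (fun i y => Q y i k) (fun i y => Q y i k) := by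
    unfold mFl BI
    rw [← EY_sum (mu ρ0) r Finset.univ fun k _ => hN.sb.mul (SB.sum _ fun i _ => SB.sum _ fun j _ =>
      ((hPV r i j hr).1.mul (hQ i k)).mul (hQ j k))]
    congr 1
    funext y
    rw [Finset.mul_sum]
  rw [e]
  exact Finset.sum_nonneg fun k _ => (thP n ρ0 R hLC hprob h r N _ _ hr hN
    (fun i => hQ i k) (fun i => hQ i k)).1

/-- **Lemma U at the upper end of a Gaussian step** -/
theorem luU (hLC : LCd ρ0) [hprob : IsProbabilityMeasure (mu ρ0)] (h : CSupp (mu ρ0) R)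
    (hb : 0 < b) (hbr : b < r) (hN : Pos N) (h1 : EY (mu ρ0) b N = 1) (hκ : 0 ≤ κ)
    (hD : DBL (mu ρ0) b κ 0)
    (hbe : κ * FI (mu ρ0) b N - HE (mu ρ0) b N ≤ be) :
    LUp (mu ρ0) κ r (r - b) be 0 (UL (mu ρ0) b r N) := by
  intro m φ Q c hφ hQ _ _ hc
  have hr : 0 < r := hb.trans hbr
  have ht : 0 < r - b := sub_pos.2 hbr
  set U := UL (mu ρ0) b r N with hU
  have hUp : Pos U := (((thR' n (mu ρ0) R h).2.2 b r hb hbr.le).2 N hN).1
  have a1 := H468.up23 (Ψ := φ) h hb hbr.le hN h1 hφ hc hD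
  set Q' : Fin n → Fin n → (Fin n → ℝ) → ℝ := fun e f y => Q y e f with hQ'
  have hQs : ∀ e f, SB (Q' e f) := fun e f => hQ e f
  have eA : (EY (mu ρ0) r fun y => U y * A2 φ Q' y) = fRE (mu ρ0) r U φ Q := rfl
  have eq2 : (EY (mu ρ0) r fun y => U y * q2 Q' y) = mSq (mu ρ0) r U Q := rfl
  have eB : (EY (mu ρ0) r fun y => U y * B2 Q' y) = mDE (mu ρ0) r U Q := by
    unfold mDE B2
    congr 1
    funext y
    congr 1
    have e1 : ∀ e, ∑ f, ∑ g, pd (Q' e f) g y ^ 2 = ∑ g, ∑ f, pd (Q' e f) g y ^ 2 := fun e =>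
      Finset.sum_comm
    simp_rw [e1]
    rw [Finset.sum_comm]
  have hA0 : 0 ≤ fRE (mu ρ0) r U φ Q := EY_nonneg _ _ fun y => mul_nonneg (hUp.pos y).le
    (Finset.sum_nonneg fun _ _ => Finset.sum_nonneg fun _ _ => sq_nonneg _)
  have hq0 : 0 ≤ mSq (mu ρ0) r U Q := EY_nonneg _ _ fun y => mul_nonneg (hUp.pos y).le
    (Finset.sum_nonneg fun _ _ => Finset.sum_nonneg fun _ _ => sq_nonneg _)
  have hB0 : 0 ≤ mDE (mu ρ0) r U Q := EY_nonneg _ _ fun y => mul_nonneg (hUp.pos y).le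
    (Finset.sum_nonneg fun _ _ => Finset.sum_nonneg fun _ _ => Finset.sum_nonneg fun _ _ =>
      sq_nonneg _)
  have hF0 : 0 ≤ mFl (mu ρ0) r U Q := mFl_nonneg hLC h hr hUp hQ
  have hI0 : 0 ≤ FI (mu ρ0) r U := EY_nonneg _ _ fun y => div_nonneg
    (Finset.sum_nonneg fun _ _ => sq_nonneg _) (hUp.pos y).le
  set J := H468.JF (gsn m) (mu ρ0) b N (fun w => PH (r - b) (H468.RL c φ w)) with hJ
  have hJle : J ≤ (√(c * fRE (mu ρ0) r U φ Q)
      + √(mSq (mu ρ0) r U Q / (r - b) + mDE (mu ρ0) r U Q)) ^ 2 := by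
    refine le_sq_of_young (mul_nonneg hc hA0) (add_nonneg (div_nonneg hq0 ht.le) hB0) ?_
    intro d hd
    have := JF_up (Q := Q') h hb hbr hN hφ hQs hc hd
    rw [← hU, eA, eq2, eB] at this
    exact this
  have hs1 : √(mSq (mu ρ0) r U Q / (r - b) + mDE (mu ρ0) r U Q)
      ≤ √(mSq (mu ρ0) r U Q / (r - b))
        + √(mDE (mu ρ0) r U Q + mFl (mu ρ0) r U Q + 0 * √(mSq (mu ρ0) r U Q)) := by
    refine (sqrt_add_le' (div_nonneg hq0 ht.le) hB0).trans ?_
    refine add_le_add le_rfl (sqrt_le_sqrt ?_)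
    linarith
  have hs2 : 0 ≤ √(FI (mu ρ0) r U)
      + √((r - b) / r * (FI (mu ρ0) r U + c * H468.DE (mu ρ0) r U φ)) := by positivity
  have hJ2 : J ≤ (√(c * fRE (mu ρ0) r U φ Q) + √(mSq (mu ρ0) r U Q / (r - b))
      + √(mDE (mu ρ0) r U Q + mFl (mu ρ0) r U Q + 0 * √(mSq (mu ρ0) r U Q)) + √(FI (mu ρ0) r U)
      + √((r - b) / r * (FI (mu ρ0) r U + c * H468.DE (mu ρ0) r U φ))) ^ 2 := by
    refine hJle.trans (pow_le_pow_left₀ (by positivity) ?_ 2)
    linarith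
  have hκJ := mul_le_mul_of_nonneg_left hJ2 hκ
  have hfin : (r - b) / 2 * FI (mu ρ0) r U ≥ 0 := by positivity
  rw [← hU] at a1
  linarith only [a1, hκJ, hfin, hbe]

end Vale.Agent.P245.H229
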